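import Vale.Agent.P335.Mixing

/-!
# P335: the Kannan-Tetali-Vempala conjecture for simple graphs

The switch chain on the graphs with a given degree vector mixes in at most `n ^ 6` steps, for every
`n ≥ 4` and every graphical degree vector.
-/

theorem Vale.Agent.Results.P335.SwitchChainMixing.result :
    ∀ (n : ℕ) (d : Fin n → ℕ), 4 ≤ n → Vale.Agent.P335.Graphical d →
      Vale.Agent.P335.MixedAt d (n ^ 6) ∧ Vale.Agent.P335.mixingTime d ≤ n ^ 6 :=
  fun _ _ hn hd => ⟨Vale.Agent.P335.main_mixing hn hd, Vale.Agent.P335.main_tmix hn hd⟩
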